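import Vale.Agent.Lib.P329.CounterFree

/-!
# P329: automata that are counter-free off one state, with a counter for the visits of that state

`δ` is the transition function of a complete deterministic automaton with finite state set `Ω` over
the finite alphabet `α`.  Assume that the automaton is counter-free off the state `s₀`: whenever a
power `u ^ k`, `k > 0`, labels a loop at a state `x` which never meets `s₀`, the word `u` itself
labels a loop at `x`.  Then for every `n > 0` every language that is determined by the map sending
each state `x` to the end state of the run from `x` and to the number modulo `n` of arrivals of this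
run at `s₀` has generalized star height at most `1`.
-/

namespace Vale.Agent.Results.P329.CounterFreeRemoval

open Vale.Agent.Lib.P329

theorem result {α Ω : Type} [Finite α] [Finite Ω] (δ : Ω → α → Ω) (s₀ : Ω)
    (hcf : CounterFreeOff δ s₀) (n : ℕ) [NeZero n] (S : Set (Ω → Ω × ZMod n)) :
    HeightLE 1 ({w | (fun x => (run δ x w, (visits δ s₀ x w : ZMod n))) ∈ S} : Language α) :=
  (Meas.pi (fun x => meas_run_visits δ s₀ hcf n x)).preimage S

end Vale.Agent.Results.P329.CounterFreeRemoval
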