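import Vale.Agent.Results.P329.GroupClasses
import Vale.Agent.Results.P329.CounterFreeRemoval

/-!
# P329: four classes of languages of generalized star height at most one, in one statement

(1) Every language recognized by a finite group `G` with a commutative normal subgroup `N` such that
`G / N` is an elementary abelian `p`-group (all commutators and all `p`-th powers lie in `N`).
(2) Every language recognized by a finite nilpotent group of class at most three.
(3) Every language recognized by the full symmetric group on `n + 1` points through the morphism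
sending the letter `i` to the transposition `(0 i+1)`.
(4) Every language determined by the transition map of a deterministic automaton that is counter-free
off one state `s₀`, together with the number modulo `n` of arrivals at `s₀`.
-/

namespace Vale.Agent.Results.P329.AllResults

open Vale.Agent.Lib.P329

theorem result :
    (∀ (α G : Type) [Finite α] [Group G] [Finite G] (N : Subgroup G) [N.Normal] (p : ℕ),
      (∀ a ∈ N, ∀ b ∈ N, a * b = b * a) → p.Prime → (∀ a b : G, a * b * a⁻¹ * b⁻¹ ∈ N) →
      (∀ a : G, a ^ p ∈ N) → ∀ (φ : α → G) (S : Set G),
        HeightLE 1 ({w | (w.map φ).prod ∈ S} : Language α)) ∧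
    (∀ (α G : Type) [Finite α] [Group G] [Finite G] [Group.IsNilpotent G],
      Group.nilpotencyClass G ≤ 3 → ∀ (φ : α → G) (S : Set G),
        HeightLE 1 ({w | (w.map φ).prod ∈ S} : Language α)) ∧
    (∀ (n : ℕ) (S : Set (Equiv.Perm (Fin (n + 1)))),
      HeightLE 1 ({w | (w.map fun i : Fin n => Equiv.swap (0 : Fin (n + 1)) i.succ).prod ∈ S} :
        Language (Fin n))) ∧
    (∀ (α Ω : Type) [Finite α] [Finite Ω] (δ : Ω → α → Ω) (s₀ : Ω), CounterFreeOff δ s₀ →
      ∀ (n : ℕ) [NeZero n] (S : Set (Ω → Ω × ZMod n)),
        HeightLE 1 ({w | (fun x => (run δ x w, (visits δ s₀ x w : ZMod n))) ∈ S} : Language α)) :=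
  ⟨GroupClasses.result.1, GroupClasses.result.2.1, GroupClasses.result.2.2,
    fun _ _ _ _ δ s₀ hcf n _ S => CounterFreeRemoval.result δ s₀ hcf n S⟩

end Vale.Agent.Results.P329.AllResults
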