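import Vale.Agent.Lib.P329.Elementary
import Vale.Agent.Lib.P329.C3.Final
import Vale.Agent.Lib.P329.Sym

/-!
# P329: three classes of group languages of generalized star height at most one

(1) Every language recognized by a finite group `G` with a commutative normal subgroup `N` such that
`G / N` is an elementary abelian `p`-group (all commutators and all `p`-th powers lie in `N`).
(2) Every language recognized by a finite nilpotent group of class at most three.
(3) Every language recognized by the full symmetric group on `n + 1` points through the morphism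
sending the letter `i` to the transposition `(0 i+1)`.
-/

namespace Vale.Agent.Results.P329.GroupClasses

open Vale.Agent.Lib.P329

theorem result :
    (∀ (α G : Type) [Finite α] [Group G] [Finite G] (N : Subgroup G) [N.Normal] (p : ℕ),
      (∀ a ∈ N, ∀ b ∈ N, a * b = b * a) → p.Prime → (∀ a b : G, a * b * a⁻¹ * b⁻¹ ∈ N) →
      (∀ a : G, a ^ p ∈ N) → ∀ (φ : α → G) (S : Set G),
        HeightLE 1 ({w | (w.map φ).prod ∈ S} : Language α)) ∧
    (∀ (α G : Type) [Finite α] [Group G] [Finite G] [Group.IsNilpotent G],
      Group.nilpotencyClass G ≤ 3 → ∀ (φ : α → G) (S : Set G),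
        HeightLE 1 ({w | (w.map φ).prod ∈ S} : Language α)) ∧
    (∀ (n : ℕ) (S : Set (Equiv.Perm (Fin (n + 1)))),
      HeightLE 1 ({w | (w.map fun i : Fin n => Equiv.swap (0 : Fin (n + 1)) i.succ).prod ∈ S} :
        Language (Fin n))) :=
  ⟨fun _ _ _ _ _ N _ p hN hp hcomm hexp φ S => heightLE_of_elementary N hN p hp hcomm hexp φ S,
    fun _ _ _ _ _ _ hc φ S => heightLE_of_class3 hc φ S,
    fun n S => heightLE_starSwap n S⟩

end Vale.Agent.Results.P329.GroupClasses
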