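import Vale.Agent.Lib.P329.C3.Final

/-!
# P329: nilpotent groups of class at most three

Every language recognized by a finite nilpotent group `G` of nilpotency class at most three
(through any assignment `φ` of elements of `G` to the letters of a finite alphabet, and any
accepting set `S`) has generalized star height at most `1`.
-/

namespace Vale.Agent.Results.P329.NilpotentClassThree

open Vale.Agent.Lib.P329

theorem result {α G : Type} [Finite α] [Group G] [Finite G] [Group.IsNilpotent G]
    (hc : Group.nilpotencyClass G ≤ 3) (φ : α → G) (S : Set G) :
    HeightLE 1 ({w | (w.map φ).prod ∈ S} : Language α) :=
  heightLE_of_class3 hc φ S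

end Vale.Agent.Results.P329.NilpotentClassThree
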